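import Vale.Agent.P063.Final

namespace Vale.Agent.Results.P063.Width

open Vale.Agent.P063

theorem result (r : ℕ) (hr : 2 ≤ r) (ε : ℝ) (hε : 0 < ε) (hε2 : ε < 1 / 2) :
    ∃ C : ℝ, ∀ n : ℕ, r ≤ n → ∀ P : Finset (Edge n r → Bool),
      IsProperty P → Increasing P → P ≠ ∅ → P ≠ Finset.univ →
        width P ε ≤ C * Real.log n ^ (-((r : ℝ) / (r - 1))) :=
  ⟨2 * (768 * r) ^ 2 / ε, fun _ hn P hP hI hne _ =>
    width_le hr hn hε hε2 P hP hI (Finset.nonempty_iff_ne_empty.mpr hne)⟩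

end Vale.Agent.Results.P063.Width
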